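import Crest.Agent.R163.Q3.D.P0.S0
import Crest.Agent.R163.Q3.D.P0.H

set_option autoImplicit false
set_option maxRecDepth 100000
set_option linter.all false
set_option Elab.async false

namespace Crest.Agent.R163.P0

theorem p0_19_16 : Ok2 par f19 ((Box3.unit.r 0).l 1) (selB2 0 (selB2 0 (selB2 0 C0 32651095528443903) 28991) 102) :=
  Ok2.run hw hf19 ⟨378,25,25,16,14⟩ 58
    (.chk true 0)
    (by decide +kernel)

theorem p0_19_17 : Ok2 par f19 (Box3.unit.r 0) (selB2 1 (selB2 0 (selB2 0 C0 32651095528443903) 28991) 102) :=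
  Ok2.run hw hf19 ⟨288,19,19,16,13⟩ 58
    (.chk false 0)
    (by decide +kernel)

theorem p0_19_18 : Ok2 par f19 Box3.unit (selB2 1 (selB2 0 C0 32651095528443903) 28991) :=
  Ok2.run hw hf19 ⟨309,25,25,16,14⟩ 58
    (.chk true 0)
    (by decide +kernel)

theorem p0_19_19 : Ok2 par f19 Box3.unit (selB2 1 C0 32651095528443903) :=
  Ok2.run hw hf19 ⟨260,19,19,16,13⟩ 58
    (.chk false 0)
    (by decide +kernel)


end Crest.Agent.R163.P0
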